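import Vale.Agent.P250.Fin

namespace Vale.Agent.Results.P250.Counterexample

open Vale.Agent.P250

/-- There is a simply connected domain in `ℂ³` with a complete negatively pinched Kähler metric
that is not biholomorphic to any bounded domain of `ℂ³`. -/
theorem result : ∃ (Ω : Set E) (g : E → Bil), IsOpen Ω ∧ IsSimplyConnected Ω ∧ IsKahler g Ω ∧
    Complete g Ω ∧ Pinched g Ω ∧ ¬ BiholBounded Ω := final

end Vale.Agent.Results.P250.Counterexample
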